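import Crest.Agent.R163.Q3.D.S2.Par
import Crest.Agent.R163.Q3.D.FS2.F0
import Crest.Agent.R163.Q3.D.FS2.F1
import Crest.Agent.R163.Q3.D.FS2.F2
import Crest.Agent.R163.Q3.D.FS2.F3
import Crest.Agent.R163.Q3.D.FS2.F4
import Crest.Agent.R163.Q3.D.FS2.F5
import Crest.Agent.R163.Q3.D.FS2.F6
import Crest.Agent.R163.Q3.D.FS2.F7
import Crest.Agent.R163.Q3.D.FS2.F8

set_option autoImplicit false
set_option maxRecDepth 100000
set_option linter.all false
set_option Elab.async false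

namespace Crest.Agent.R163.S2

abbrev f0 := FS2.f0
theorem hf0 : FitOK par f0 :=
  FitOK.of_list [1,2,3,4,5,6,7] (by decide +kernel) FS2.lf0
abbrev f1 := FS2.f1
theorem hf1 : FitOK par f1 :=
  FitOK.of_list [1,2,3,4,5,6,7] (by decide +kernel) FS2.lf1
abbrev f2 := FS2.f2
theorem hf2 : FitOK par f2 :=
  FitOK.of_list [1,2,3,4,5,6,7] (by decide +kernel) FS2.lf2
abbrev f3 := FS2.f3
theorem hf3 : FitOK par f3 :=
  FitOK.of_list [1,2,3,4,5,6,7] (by decide +kernel) FS2.lf3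
abbrev f4 := FS2.f4
theorem hf4 : FitOK par f4 :=
  FitOK.of_list [1,2,3,4,5,6,7] (by decide +kernel) FS2.lf4
abbrev f5 := FS2.f5
theorem hf5 : FitOK par f5 :=
  FitOK.of_list [1,2,3,4,5,6,7] (by decide +kernel) FS2.lf5
abbrev f6 := FS2.f6
theorem hf6 : FitOK par f6 :=
  FitOK.of_list [1,2,3,4,5,6,7] (by decide +kernel) FS2.lf6
abbrev f7 := FS2.f7
theorem hf7 : FitOK par f7 :=
  FitOK.of_list [1,2,3,4,5,6,7] (by decide +kernel) FS2.lf7
abbrev f8 := FS2.f8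
theorem hf8 : FitOK par f8 :=
  FitOK.of_list [1,2,3,4,5,6,7] (by decide +kernel) FS2.lf8

end Crest.Agent.R163.S2
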