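import Crest.Agent.R163.Q3.D.S2.S1
import Crest.Agent.R163.Q3.D.S2.H

set_option autoImplicit false
set_option maxRecDepth 100000
set_option linter.all false
set_option Elab.async false

namespace Crest.Agent.R163.S2

theorem p1_8_3 : Ok par f8 (Box3.unit.r 0) (selB 0 C1 926336713898529563313437308627219716942298302061770376457361052734344047106562) :=
  Ok.run hw hf8 ⟨318,25,25,1,10⟩ 59
    (.part 1427247692705959881058285969447243336032190463 (.chk false 0) (.split 1 (.chk false 0) (.chk false 0)))
    (by decide +kernel)

theorem p1_8_4 : Ok par f8 Box3.unit (selB 1 C1 926336713898529563313437308627219716942298302061770376457361052734344047106562) :=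
  Ok.run hw hf8 ⟨242,25,25,1,10⟩ 59
    (.chk false 0)
    (by decide +kernel)


end Crest.Agent.R163.S2
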