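import Crest.Agent.R163.Q3.D.S2.S0

set_option autoImplicit false
set_option maxRecDepth 100000
set_option linter.all false
set_option Elab.async false

namespace Crest.Agent.R163.S2

theorem c0_0 : stepsOK par ⟨715,23,12,1,9⟩ b0_0 s0_0 a0_0 = true := by decide +kernel
theorem c1_0 : stepsOK par ⟨713,23,12,1,9⟩ b1_0 s1_0 a1_0 = true := by decide +kernel
theorem c2_0 : stepsOK par ⟨712,23,12,1,9⟩ b2_0 s2_0 a2_0 = true := by decide +kernel
theorem c3_0 : stepsOK par ⟨714,23,12,1,9⟩ b3_0 s3_0 a3_0 = true := by decide +kernel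
theorem c4_0 : stepsOK par ⟨714,23,12,1,9⟩ b4_0 s4_0 a4_0 = true := by decide +kernel
theorem c5_0 : stepsOK par ⟨715,23,12,1,9⟩ b5_0 s5_0 a5_0 = true := by decide +kernel
theorem c6_0 : stepsOK par ⟨718,23,12,1,9⟩ b6_0 s6_0 a6_0 = true := by decide +kernel
theorem c7_0 : stepsOK par ⟨719,23,12,1,9⟩ b7_0 s7_0 a7_0 = true := by decide +kernel
theorem c8_0 : stepsOK par ⟨715,23,12,1,9⟩ b8_0 s8_0 a8_0 = true := by decide +kernel
theorem c9_0 : stepsOK par ⟨717,23,12,1,9⟩ b9_0 s9_0 a9_0 = true := by decide +kernel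
theorem c10_0 : stepsOK par ⟨720,23,12,1,9⟩ b10_0 s10_0 a10_0 = true := by decide +kernel
theorem c11_0 : stepsOK par ⟨719,23,12,1,9⟩ b11_0 s11_0 a11_0 = true := by decide +kernel
theorem c12_0 : stepsOK par ⟨717,23,12,1,9⟩ b12_0 s12_0 a12_0 = true := by decide +kernel
theorem c13_0 : stepsOK par ⟨718,23,12,1,9⟩ b13_0 s13_0 a13_0 = true := by decide +kernel
theorem c14_0 : stepsOK par ⟨720,23,12,1,9⟩ b14_0 s14_0 a14_0 = true := by decide +kernel
theorem c15_0 : stepsOK par ⟨715,23,12,1,9⟩ b15_0 s15_0 a15_0 = true := by decide +kernel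
theorem c16_0 : stepsOK par ⟨716,23,12,1,9⟩ b16_0 s16_0 a16_0 = true := by decide +kernel
theorem c17_0 : stepsOK par ⟨717,23,12,1,9⟩ b17_0 s17_0 a17_0 = true := by decide +kernel
theorem c18_0 : stepsOK par ⟨720,23,12,1,9⟩ b18_0 s18_0 a18_0 = true := by decide +kernel
theorem c19_0 : stepsOK par ⟨720,23,12,1,9⟩ b19_0 s19_0 a19_0 = true := by decide +kernel
theorem c20_0 : stepsOK par ⟨718,23,12,1,9⟩ b20_0 s20_0 a20_0 = true := by decide +kernel
theorem c21_0 : stepsOK par ⟨720,23,12,1,9⟩ b21_0 s21_0 a21_0 = true := by decide +kernel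
theorem c22_0 : stepsOK par ⟨720,23,12,1,9⟩ b22_0 s22_0 a22_0 = true := by decide +kernel
theorem c23_0 : stepsOK par ⟨716,23,12,1,9⟩ b23_0 s23_0 a23_0 = true := by decide +kernel
theorem c24_0 : stepsOK par ⟨720,23,12,1,9⟩ b24_0 s24_0 a24_0 = true := by decide +kernel
theorem c25_0 : stepsOK par ⟨720,23,12,1,9⟩ b25_0 s25_0 a25_0 = true := by decide +kernel
theorem c26_0 : stepsOK par ⟨713,23,12,1,9⟩ b26_0 s26_0 a26_0 = true := by decide +kernel
theorem c27_0 : stepsOK par ⟨715,23,12,1,9⟩ b27_0 s27_0 a27_0 = true := by decide +kernel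
theorem c28_0 : stepsOK par ⟨716,23,12,1,9⟩ b28_0 s28_0 a28_0 = true := by decide +kernel
theorem c29_0 : stepsOK par ⟨717,23,12,1,9⟩ b29_0 s29_0 a29_0 = true := by decide +kernel
theorem c30_0 : stepsOK par ⟨720,23,12,1,9⟩ b30_0 s30_0 a30_0 = true := by decide +kernel

end Crest.Agent.R163.S2
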