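import Crest.Agent.R163.Q3.D.S2.S1

set_option autoImplicit false
set_option maxRecDepth 100000
set_option linter.all false
set_option Elab.async false

namespace Crest.Agent.R163.S2

theorem c31_0 : stepsOK par ⟨720,23,12,1,9⟩ b31_0 s31_0 a31_0 = true := by decide +kernel
theorem c32_0 : stepsOK par ⟨718,23,12,1,9⟩ b32_0 s32_0 a32_0 = true := by decide +kernel
theorem c33_0 : stepsOK par ⟨720,23,12,1,9⟩ b33_0 s33_0 a33_0 = true := by decide +kernel
theorem c34_0 : stepsOK par ⟨721,23,12,1,9⟩ b34_0 s34_0 a34_0 = true := by decide +kernel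
theorem c35_0 : stepsOK par ⟨716,23,12,1,9⟩ b35_0 s35_0 a35_0 = true := by decide +kernel
theorem c36_0 : stepsOK par ⟨721,23,12,1,9⟩ b36_0 s36_0 a36_0 = true := by decide +kernel
theorem c37_0 : stepsOK par ⟨721,23,12,1,9⟩ b37_0 s37_0 a37_0 = true := by decide +kernel
theorem c38_0 : stepsOK par ⟨716,23,12,1,9⟩ b38_0 s38_0 a38_0 = true := by decide +kernel
theorem c39_0 : stepsOK par ⟨717,23,12,1,9⟩ b39_0 s39_0 a39_0 = true := by decide +kernel
theorem c40_0 : stepsOK par ⟨721,23,12,1,9⟩ b40_0 s40_0 a40_0 = true := by decide +kernel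
theorem c41_0 : stepsOK par ⟨721,23,12,1,9⟩ b41_0 s41_0 a41_0 = true := by decide +kernel
theorem c42_0 : stepsOK par ⟨717,23,12,1,9⟩ b42_0 s42_0 a42_0 = true := by decide +kernel
theorem c43_0 : stepsOK par ⟨720,23,12,1,9⟩ b43_0 s43_0 a43_0 = true := by decide +kernel
theorem c44_0 : stepsOK par ⟨721,23,12,1,9⟩ b44_0 s44_0 a44_0 = true := by decide +kernel
theorem c45_0 : stepsOK par ⟨714,23,12,1,9⟩ b45_0 s45_0 a45_0 = true := by decide +kernel
theorem c46_0 : stepsOK par ⟨716,23,12,1,9⟩ b46_0 s46_0 a46_0 = true := by decide +kernel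
theorem c47_0 : stepsOK par ⟨717,23,12,1,9⟩ b47_0 s47_0 a47_0 = true := by decide +kernel
theorem c48_0 : stepsOK par ⟨721,23,12,1,9⟩ b48_0 s48_0 a48_0 = true := by decide +kernel
theorem c49_0 : stepsOK par ⟨722,23,12,1,9⟩ b49_0 s49_0 a49_0 = true := by decide +kernel
theorem c50_0 : stepsOK par ⟨717,23,12,1,9⟩ b50_0 s50_0 a50_0 = true := by decide +kernel
theorem c51_0 : stepsOK par ⟨721,23,12,1,9⟩ b51_0 s51_0 a51_0 = true := by decide +kernel
theorem c52_0 : stepsOK par ⟨720,23,12,1,9⟩ b52_0 s52_0 a52_0 = true := by decide +kernel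
theorem c53_0 : stepsOK par ⟨717,23,12,1,9⟩ b53_0 s53_0 a53_0 = true := by decide +kernel
theorem c54_0 : stepsOK par ⟨722,23,12,1,9⟩ b54_0 s54_0 a54_0 = true := by decide +kernel
theorem c55_0 : stepsOK par ⟨719,23,12,1,9⟩ b55_0 s55_0 a55_0 = true := by decide +kernel
theorem c56_0 : stepsOK par ⟨717,23,12,1,9⟩ b56_0 s56_0 a56_0 = true := by decide +kernel
theorem c56_1 : stepsOK par ⟨720,23,12,1,9⟩ b56_1 s56_1 a56_1 = true := by decide +kernel

end Crest.Agent.R163.S2
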